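import Vale.Agent.Lib.P317.General

/-!
# Common bases when all `(r - c)`-subsets of the second matroid are independent
-/

namespace Vale.Agent.Results.P317.A_general

open Vale.Agent.Lib.P317

/-- Let `M₁`, `M₂` be matroids whose bases all have `r` elements, `M₂` with ground set `Fin n`, and
let `1 ≤ c ≤ r` be such that every set of `r - c` elements is independent in `M₂`. If `M₁` and `M₂`
have a common base, then `|B(M₁)| ≤ (1 + r (n - r)) ^ (c ^ 2 + c - 1) · |B(M₁) ∩ B(M₂)|`. -/
theorem result {n r c : ℕ} (M₁ M₂ : Matroid (Fin n)) (hE₂ : M₂.E = Set.univ)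
    (hc1 : 1 ≤ c) (hcr : c ≤ r) (hr₁ : HasRank M₁ r) (hr₂ : HasRank M₂ r)
    (hind : ∀ I : Finset (Fin n), I.card + c = r → M₂.Indep (I : Set (Fin n)))
    (hne : (commonBases M₁ M₂).Nonempty) :
    (basesOf M₁).card ≤ (1 + r * (n - r)) ^ (c * c + c - 1) * (commonBases M₁ M₂).card :=
  card_bases_le_general M₁ M₂ hE₂ hc1 hcr hr₁ hr₂ hind hne

end Vale.Agent.Results.P317.A_general
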