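import Vale.Agent.Lib.P317.Paving

/-!
# Common bases of an arbitrary matroid and a paving matroid
-/

namespace Vale.Agent.Results.P317.A_paving

open Vale.Agent.Lib.P317

/-- Let `M₁`, `M₂` be matroids on subsets of `Fin n` whose bases all have `r` elements, `M₂` with
ground set `Fin n` and paving: every set of `r - 1` elements is independent in `M₂`. If `M₁` and
`M₂` have a common base, then `|B(M₁)| ≤ (1 + r (n - r)) · |B(M₁) ∩ B(M₂)|`. -/
theorem result {n r : ℕ} (M₁ M₂ : Matroid (Fin n)) (hE₂ : M₂.E = Set.univ)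
    (hr₁ : HasRank M₁ r) (hr₂ : HasRank M₂ r) (hpav : IsPaving M₂ r)
    (hne : (commonBases M₁ M₂).Nonempty) :
    (basesOf M₁).card ≤ (1 + r * (n - r)) * (commonBases M₁ M₂).card :=
  card_bases_le M₁ M₂ hE₂ hr₁ hr₂ hpav hne

end Vale.Agent.Results.P317.A_paving
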