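import Vale.Agent.Lib.P317.Half

/-!
# At least half of the bases of any matroid are bases of a given sparse paving matroid
-/

namespace Vale.Agent.Results.P317.B_sparse_half

open Vale.Agent.Lib.P317

/-- Let `M₁`, `M₂` be matroids on subsets of `Fin n`, all bases of `M₁` having `r` elements, and
`M₂` sparse paving of rank `r`: two distinct `r`-sets that are not bases of `M₂` differ in at least
two elements. If `M₁` has at least two bases, then at least half of them are bases of `M₂`. -/
theorem result {n r : ℕ} (M₁ M₂ : Matroid (Fin n)) (hr₁ : HasRank M₁ r)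
    (hsp : IsSparsePaving M₂ r) (h2 : 2 ≤ (basesOf M₁).card) :
    (basesOf M₁).card ≤ 2 * (commonBases M₁ M₂).card :=
  card_bases_le_two_mul M₁ M₂ hr₁ hsp h2

end Vale.Agent.Results.P317.B_sparse_half
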